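import Vale.Agent.Results.P068.A0_FourClassesCombined

/-!
P068: the four proved classes in one statement, and the corollary for pairs in which one matroid
has finite rank or finite corank.

(1), (2), (3), (4) are the four conjuncts of A0_FourClassesCombined, copied verbatim.
(5): if one of M, N has finite rank or finite corank (the other matroid is arbitrary), then the
pair (M, N) satisfies intersection.  It follows from (1).
-/

namespace Vale.Agent.Results.P068.A00_FourClassesAndFiniteRank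

open Matroid

/-- A pair of matroids on a common ground set in which one matroid has finite rank or finite
corank satisfies intersection. -/
theorem finite_rank_or_corank.{u} {α : Type u} (M N : Matroid α) (hE : M.E = N.E)
    (h : M.RankFinite ∨ M✶.RankFinite ∨ N.RankFinite ∨ N✶.RankFinite) :
    ∃ J JM JN : Set α, M.Indep J ∧ N.Indep J ∧ JM ∪ JN = J ∧ Disjoint JM JN ∧
      M.closure JM ∪ N.closure JN = M.E := by
  apply Vale.Agent.Results.P068.A_AlmostSpanning.result M N hE
  rcases h with h | h | h | h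
  · obtain ⟨B, hB⟩ := M.exists_isBase
    left
    refine ⟨∅, B, M.empty_indep, N.empty_indep, hB.finite, Or.inl ?_⟩
    rw [Set.empty_union]
    exact hB.spanning
  · obtain ⟨B, hB⟩ := M✶.exists_isBase
    right
    refine ⟨M.E, B, M.ground_spanning, hE ▸ N.ground_spanning, hB.finite, Or.inl ?_⟩
    exact hB.compl_isBase_of_dual.indep
  · obtain ⟨B, hB⟩ := N.exists_isBase
    left
    refine ⟨∅, B, M.empty_indep, N.empty_indep, hB.finite, Or.inr ?_⟩
    rw [Set.empty_union]
    exact hB.spanning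
  · obtain ⟨B, hB⟩ := N✶.exists_isBase
    right
    refine ⟨M.E, B, M.ground_spanning, hE ▸ N.ground_spanning, hB.finite, Or.inr ?_⟩
    rw [hE]
    exact hB.compl_isBase_of_dual.indep

theorem result.{u, v} :
    (∀ {α : Type u} (M N : Matroid α), M.E = N.E →
      ((∃ J K : Set α, M.Indep J ∧ N.Indep J ∧ K.Finite ∧
            (M.Spanning (J ∪ K) ∨ N.Spanning (J ∪ K))) ∨
         (∃ S K : Set α, M.Spanning S ∧ N.Spanning S ∧ K.Finite ∧
            (M.Indep (S \ K) ∨ N.Indep (S \ K)))) →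
      ∃ J JM JN : Set α, M.Indep J ∧ N.Indep J ∧ JM ∪ JN = J ∧ Disjoint JM JN ∧
        M.closure JM ∪ N.closure JN = M.E) ∧
    (∀ {α : Type u} (M N : Matroid α), M.E = N.E → ∀ (J₀ : Set α) (K : ℕ),
      M.Indep J₀ → N.Indep J₀ →
      (∀ I : Set α, (M.contract J₀).Indep I → N.Indep I → I.encard ≤ K) →
      ∃ J JM JN : Set α, M.Indep J ∧ N.Indep J ∧ JM ∪ JN = J ∧ Disjoint JM JN ∧
        M.closure JM ∪ N.closure JN = M.E) ∧
    (∀ {α : Type u} {ι : Type v} [Finite ι] (M : Matroid α) (N : ι → Matroid α)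
      (hdj : Pairwise (Function.onFun Disjoint fun i => (N i).E)),
      M.E = ⋃ i, (N i).E →
      (∀ i, (N i).RankFinite ∨ (N i).dual.RankFinite) →
      ∃ J JM JN : Set α, M.Indep J ∧ (Matroid.disjointSigma N hdj).Indep J ∧ JM ∪ JN = J ∧
        Disjoint JM JN ∧ M.closure JM ∪ (Matroid.disjointSigma N hdj).closure JN = M.E) ∧
    (∀ {α : Type u} {Θ : Type v} [Finite Θ] (M : Θ → Matroid α) (E : Set α),
      (∀ i, (M i).E = E) → (∀ i, (M i).RankFinite ∨ (M i)✶.RankFinite) →
      ∃ (P C : Set α) (S I : Θ → Set α), P ∪ C = E ∧ Disjoint P C ∧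
        (∀ i, S i ⊆ P) ∧ (∀ i j, i ≠ j → Disjoint (S i) (S j)) ∧
        (∀ i, ((M i) ↾ P).closure (S i) = P) ∧
        (∀ i, I i ⊆ C) ∧ (∀ i, (((M i)✶ ↾ C)✶).Indep (I i)) ∧ (⋃ i, I i) = C) ∧
    (∀ {α : Type u} (M N : Matroid α), M.E = N.E →
      (M.RankFinite ∨ M✶.RankFinite ∨ N.RankFinite ∨ N✶.RankFinite) →
      ∃ J JM JN : Set α, M.Indep J ∧ N.Indep J ∧ JM ∪ JN = J ∧ Disjoint JM JN ∧
        M.closure JM ∪ N.closure JN = M.E) :=
  ⟨Vale.Agent.Results.P068.A0_FourClassesCombined.result.{u, v}.1,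
   Vale.Agent.Results.P068.A0_FourClassesCombined.result.{u, v}.2.1,
   Vale.Agent.Results.P068.A0_FourClassesCombined.result.{u, v}.2.2.1,
   Vale.Agent.Results.P068.A0_FourClassesCombined.result.{u, v}.2.2.2,
   fun M N hE h => finite_rank_or_corank M N hE h⟩

end Vale.Agent.Results.P068.A00_FourClassesAndFiniteRank
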