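import Vale.Agent.H57.MatroidAug

/-!
# P068: a criterion for the matroid intersection property

Let `M`, `N` be matroids (in the sense of Mathlib, so possibly infinite and not necessarily
finitary) on a common ground set.  Suppose some common independent set `J₀` has the property
that the sets independent in both the contraction `M ／ J₀` and `N` have at most `K` elements.
Then some common independent set `J` splits as `J = JM ∪ JN` (disjointly) with
`cl_M(JM) ∪ cl_N(JN)` equal to the whole ground set, i.e. the pair satisfies intersection.
-/

namespace Vale.Agent.Results.P068.C_ContractBounded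

theorem result {α : Type*} (M N : Matroid α) (hE : M.E = N.E) (J₀ : Set α) (K : ℕ)
    (hM : M.Indep J₀) (hN : N.Indep J₀)
    (hK : ∀ I : Set α, (M.contract J₀).Indep I → N.Indep I → I.encard ≤ K) :
    ∃ J JM JN : Set α, M.Indep J ∧ N.Indep J ∧ JM ∪ JN = J ∧ Disjoint JM JN ∧
      M.closure JM ∪ N.closure JN = M.E :=
  Vale.Agent.H57.intersection_of_contract_bounded M N hE J₀ K hM hN hK

end Vale.Agent.Results.P068.C_ContractBounded
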