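import Vale.Agent.H57.MatroidSum

/-!
# P068: intersection of an arbitrary matroid with a finite direct sum

Let `M` be an arbitrary matroid (in the sense of Mathlib, so possibly infinite and not
necessarily finitary) and let `N` be the direct sum of finitely many matroids `N i` with
pairwise disjoint ground sets covering the ground set of `M`, each `N i` of finite rank or of
finite corank (its dual has finite rank).  Then the pair `(M, N)` satisfies intersection.
-/

namespace Vale.Agent.Results.P068.D_FiniteDirectSum

theorem result {α ι : Type*} [Finite ι] (M : Matroid α) (N : ι → Matroid α)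
    (hdj : Pairwise (Function.onFun Disjoint fun i => (N i).E))
    (hE : M.E = ⋃ i, (N i).E)
    (hfin : ∀ i, (N i).RankFinite ∨ (N i).dual.RankFinite) :
    ∃ J JM JN : Set α, M.Indep J ∧ (Matroid.disjointSigma N hdj).Indep J ∧ JM ∪ JN = J ∧
      Disjoint JM JN ∧ M.closure JM ∪ (Matroid.disjointSigma N hdj).closure JN = M.E :=
  Vale.Agent.H57.intersection_disjointSigma M N hdj hE hfin

end Vale.Agent.Results.P068.D_FiniteDirectSum
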