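import Mathlib
import Vale.Agent.H18.PackingCovering

/-!
# P068: packing/covering partitions for finite families of finite rank or corank

Let `M i` (`i : Θ`, `Θ` finite) be matroids (in the sense of Bruhn-Diestel-Kriesell-
Pendavingh-Wollan, as in Mathlib) on a common ground set `E` of any cardinality, each of which
has finite rank or finite corank (its dual has finite rank).  Then the family has a
packing/covering partition: `E = P ⊔ C` with pairwise disjoint sets `S i ⊆ P` such that
`cl_{M i ↾ P} (S i) = P`, and sets `I i ⊆ C`, independent in the contraction
`M i . C = ((M i)✶ ↾ C)✶`, whose union is `C`.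

The proof applies the intersection theorem for an arbitrary matroid and a finite direct sum of
matroids of finite rank or corank (`Vale.Agent.H57.intersection_disjointSigma`) to the
partition matroid on `Θ × E` and the direct sum of the copies of the `M i`, and translates the
resulting common independent set back (the Bowler-Carmesin correspondence).
-/

namespace Vale.Agent.Results.P068.E_FinitePackingCovering

open Matroid

theorem result {α Θ : Type*} [Finite Θ] (M : Θ → Matroid α) (E : Set α)
    (hE : ∀ i, (M i).E = E) (hfin : ∀ i, (M i).RankFinite ∨ (M i)✶.RankFinite) :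
    ∃ (P C : Set α) (S I : Θ → Set α), P ∪ C = E ∧ Disjoint P C ∧
      (∀ i, S i ⊆ P) ∧ (∀ i j, i ≠ j → Disjoint (S i) (S j)) ∧
      (∀ i, ((M i) ↾ P).closure (S i) = P) ∧
      (∀ i, I i ⊆ C) ∧ (∀ i, (((M i)✶ ↾ C)✶).Indep (I i)) ∧ (⋃ i, I i) = C :=
  Vale.Agent.H18.packingCovering_of_finite_family M E hE hfin

end Vale.Agent.Results.P068.E_FinitePackingCovering
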