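import Vale.Agent.Results.P068.A_AlmostSpanning
import Vale.Agent.Results.P068.C_ContractBounded
import Vale.Agent.Results.P068.D_FiniteDirectSum
import Vale.Agent.Results.P068.E_FinitePackingCovering

/-!
P068: the four proved classes in one statement.

(1), (2), (3): three classes of pairs of matroids that satisfy intersection (Q1 (b));
(4): finite families of matroids of finite rank or finite corank have a packing/covering
partition (Q1 (a)).  The four conjuncts are the statements of A_AlmostSpanning, C_ContractBounded,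
D_FiniteDirectSum and E_FinitePackingCovering, copied verbatim.
-/

namespace Vale.Agent.Results.P068.A0_FourClassesCombined

open Matroid

theorem result.{u, v} :
    (∀ {α : Type u} (M N : Matroid α), M.E = N.E →
      ((∃ J K : Set α, M.Indep J ∧ N.Indep J ∧ K.Finite ∧
            (M.Spanning (J ∪ K) ∨ N.Spanning (J ∪ K))) ∨
         (∃ S K : Set α, M.Spanning S ∧ N.Spanning S ∧ K.Finite ∧
            (M.Indep (S \ K) ∨ N.Indep (S \ K)))) →
      ∃ J JM JN : Set α, M.Indep J ∧ N.Indep J ∧ JM ∪ JN = J ∧ Disjoint JM JN ∧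
        M.closure JM ∪ N.closure JN = M.E) ∧
    (∀ {α : Type u} (M N : Matroid α), M.E = N.E → ∀ (J₀ : Set α) (K : ℕ),
      M.Indep J₀ → N.Indep J₀ →
      (∀ I : Set α, (M.contract J₀).Indep I → N.Indep I → I.encard ≤ K) →
      ∃ J JM JN : Set α, M.Indep J ∧ N.Indep J ∧ JM ∪ JN = J ∧ Disjoint JM JN ∧
        M.closure JM ∪ N.closure JN = M.E) ∧
    (∀ {α : Type u} {ι : Type v} [Finite ι] (M : Matroid α) (N : ι → Matroid α)
      (hdj : Pairwise (Function.onFun Disjoint fun i => (N i).E)),
      M.E = ⋃ i, (N i).E →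
      (∀ i, (N i).RankFinite ∨ (N i).dual.RankFinite) →
      ∃ J JM JN : Set α, M.Indep J ∧ (Matroid.disjointSigma N hdj).Indep J ∧ JM ∪ JN = J ∧
        Disjoint JM JN ∧ M.closure JM ∪ (Matroid.disjointSigma N hdj).closure JN = M.E) ∧
    (∀ {α : Type u} {Θ : Type v} [Finite Θ] (M : Θ → Matroid α) (E : Set α),
      (∀ i, (M i).E = E) → (∀ i, (M i).RankFinite ∨ (M i)✶.RankFinite) →
      ∃ (P C : Set α) (S I : Θ → Set α), P ∪ C = E ∧ Disjoint P C ∧
        (∀ i, S i ⊆ P) ∧ (∀ i j, i ≠ j → Disjoint (S i) (S j)) ∧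
        (∀ i, ((M i) ↾ P).closure (S i) = P) ∧
        (∀ i, I i ⊆ C) ∧ (∀ i, (((M i)✶ ↾ C)✶).Indep (I i)) ∧ (⋃ i, I i) = C) :=
  ⟨fun M N hE h => Vale.Agent.Results.P068.A_AlmostSpanning.result M N hE h,
   fun M N hE J₀ K hM hN hK =>
     Vale.Agent.Results.P068.C_ContractBounded.result M N hE J₀ K hM hN hK,
   fun M N hdj hE hfin => Vale.Agent.Results.P068.D_FiniteDirectSum.result M N hdj hE hfin,
   fun M E hE hfin => Vale.Agent.Results.P068.E_FinitePackingCovering.result M E hE hfin⟩

end Vale.Agent.Results.P068.A0_FourClassesCombined
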