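import Mathlib
import Vale.Agent.H18.Intersection

/-!
# P068: matroid intersection for pairs with an almost spanning common independent set

Let `M` and `N` be matroids (in the sense of Bruhn-Diestel-Kriesell-Pendavingh-Wollan, as in
Mathlib) on a common ground set, of any cardinality and with no finitarity assumption.
Suppose that

* some common independent set `J` becomes spanning in `M` or in `N` after adding finitely many
  elements, or
* some set `S` spanning in both `M` and `N` becomes independent in `M` or in `N` after removing
  finitely many elements.

Then the pair `(M, N)` satisfies intersection: there is a common independent set `J` with a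
partition `J = JM ⊔ JN` such that `cl_M JM ∪ cl_N JN` is the whole ground set.

In particular this holds whenever one of `M`, `N` has finite rank (take `J = ∅`) or finite
corank (take `S` to be the ground set), the other matroid being arbitrary.

The proof (in `Vale.Agent.H18`) runs the exchange-digraph argument for a possibly infinite
common independent set: if no source reaches a sink, the reachability set yields the
partition; otherwise a finite minor and the finite matroid intersection theorem give a common
independent set of smaller corank.  The second case follows by a duality lemma.
-/

namespace Vale.Agent.Results.P068.A_AlmostSpanning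

open Matroid

theorem result {α : Type*} (M N : Matroid α) (hE : M.E = N.E)
    (h : (∃ J K : Set α, M.Indep J ∧ N.Indep J ∧ K.Finite ∧
            (M.Spanning (J ∪ K) ∨ N.Spanning (J ∪ K))) ∨
         (∃ S K : Set α, M.Spanning S ∧ N.Spanning S ∧ K.Finite ∧
            (M.Indep (S \ K) ∨ N.Indep (S \ K)))) :
    ∃ J JM JN : Set α, M.Indep J ∧ N.Indep J ∧ JM ∪ JN = J ∧ Disjoint JM JN ∧
      M.closure JM ∪ N.closure JN = M.E :=
  Vale.Agent.H18.satInter_main M N hE h

end Vale.Agent.Results.P068.A_AlmostSpanning
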